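/-
S0066 (row 47) — package R1b (owner helper76): the crown lemma.

`crown_lines_of`: if `R, C : Fin 59 → Line h` span a 59-crown of the base matrix `M`
(`M (R a) (C b) = [a ≠ b]`), then every `R a` and every `C a` is a crown line.
The three R1a facts (package of helper4) are taken as hypotheses here; the module
`Crest.Agent.Helper76.S0066.R1b` instantiates them.

Proof (blueprint `notes/s0066_blueprint.md`, R1b).  `norm` forgets the copy number of a marker
line; `M` does not see it.  Row `R b` separates column `C b` from every other column, so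
`norm ∘ C` (and `norm ∘ R`) is injective.  By R1a at most `2 + 1 + 1` indices `a` have a payload
line among `R a, C a`; let `Mk` be the set of the other (≥ 55) indices.  A `Z` / `thr` row sees at
most six marker-column types, but a marker row `R a` sees the ≥ 54 columns `C b`, `b ∈ Mk \ {a}`:
so it is a crown line; likewise for the columns.  Finally any row `R a` sees two columns `C b`,
`C b'` of different crown types, which only a crown row does.
-/
import Crest.Agent.Helper5.S0066.Defs

set_option autoImplicit false

namespace Crest.Agent.Helper76.S0066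

open Crest.Agent.Helper5.S0066 Line

variable {h : ℕ}

/-- Forget the copy number of a marker line. -/
def norm : Line h → Line h
  | .Z _ => .Z ⟨0, Nat.two_pow_pos h⟩
  | .crown a _ => .crown a ⟨0, Nat.two_pow_pos h⟩
  | .thr g θ _ => .thr g θ ⟨0, Nat.two_pow_pos h⟩
  | l => l

theorem M_norm_col (r c : Line h) : M r (norm c) = M r c := by
  cases c <;> cases r <;> rfl

theorem M_norm_row (r c : Line h) : M (norm r) c = M r c := by
  cases r <;> cases c <;> rfl

/-- On marker lines the base matrix is symmetric. -/
theorem M_symm_mark {r c : Line h} (hr : r.isPay = false) (hc : c.isPay = false) :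
    M c r = M r c := by
  cases r <;> cases c <;> simp_all [M, isPay, eq_comm]

/-- The slot of a marker column among the (at most six) types a `Z` / `thr` row can see. -/
def slot : Line h → Fin 6
  | .crown _ _ => 1
  | .thr _ θ _ => ⟨2 + θ.val, by omega⟩
  | _ => 0

/-- A marker row that is not a crown line sees at most one marker-column type per slot. -/
theorem norm_eq_of_slot {r c c' : Line h} (hr : r.isPay = false)
    (hrc : ∀ ρ i, r ≠ crown ρ i) (hc : c.isPay = false) (hc' : c'.isPay = false)
    (h1 : M r c = true) (h2 : M r c' = true) (hs : slot c = slot c') : norm c = norm c' := by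
  cases r with
  | Y i => simp [isPay] at hr
  | leaf x => simp [isPay] at hr
  | core j k y => simp [isPay] at hr
  | crown ρ i => exact absurd rfl (hrc ρ i)
  | Z i =>
    cases c <;> cases c' <;> simp [M, isPay] at hc hc' h1 h2
    obtain ⟨rfl, rfl⟩ := h1
    obtain ⟨rfl, rfl⟩ := h2
    rfl
  | thr g θ i =>
    cases c <;> cases c' <;> simp [M, isPay] at hc hc' h1 h2 <;>
      simp [slot] at hs <;> simp only [norm]
    · have e := Fin.ext (h1.trans h2.symm)
      subst e
      rfl
    · omega
    · omega
    · subst h1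
      subst h2
      have e := Fin.ext hs
      subst e
      rfl

/-- The separation argument: in a crown of a matrix `X` blind to copy numbers of columns,
the columns have pairwise different normal forms. -/
theorem norm_col_inj {X : Line h → Line h → Bool} (hX1 : ∀ r c, X r (norm c) = X r c)
    {R C : Fin 59 → Line h} (hX : ∀ a b, X (R a) (C b) = decide (a ≠ b)) {b b' : Fin 59}
    (hbb : norm (C b) = norm (C b')) : b = b' := by
  by_contra hne
  have h1 : X (R b) (C b) = false := by rw [hX]; simp
  have h2 : X (R b) (C b') = true := by rw [hX]; simpa using hne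
  rw [← hX1, hbb, hX1, h2] at h1
  exact Bool.noConfusion h1

/-- Step 1: a marker row of a crown that sees eight marker columns of the crown is a crown
line. -/
theorem core1 {X : Line h → Line h → Bool} (hX1 : ∀ r c, X r (norm c) = X r c)
    (hX2 : ∀ r c, r.isPay = false → c.isPay = false → X r c = M r c)
    {R C : Fin 59 → Line h} (hX : ∀ a b, X (R a) (C b) = decide (a ≠ b))
    (S : Finset (Fin 59)) (hS : 8 ≤ S.card) (hSC : ∀ b ∈ S, (C b).isPay = false)
    (a : Fin 59) (ha : (R a).isPay = false) : ∃ ρ i, R a = crown ρ i := by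
  by_contra hcon0
  have hcon : ∀ ρ i, R a ≠ crown ρ i := fun ρ i he => hcon0 ⟨ρ, i, he⟩
  have hcard : (S.erase a).card ≤ (Finset.univ : Finset (Fin 6)).card := by
    apply Finset.card_le_card_of_injOn (fun b => slot (C b))
    · intro b _
      exact Finset.mem_univ _
    · intro b hb b' hb' hbb'
      rw [Finset.mem_coe, Finset.mem_erase] at hb hb'
      have e1 : M (R a) (C b) = true := by
        rw [← hX2 _ _ ha (hSC b hb.2), hX]
        simpa using hb.1.symm
      have e2 : M (R a) (C b') = true := by
        rw [← hX2 _ _ ha (hSC b' hb'.2), hX]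
        simpa using hb'.1.symm
      exact norm_col_inj hX1 hX (norm_eq_of_slot ha hcon (hSC b hb.2) (hSC b' hb'.2) e1 e2 hbb')
  have h7 : S.card - 1 ≤ (S.erase a).card := Finset.pred_card_le_card_erase
  rw [Finset.card_univ, Fintype.card_fin] at hcard
  omega

/-- Step 2: a row of a crown that sees two crown columns of the crown is a crown line. -/
theorem core2 {X : Line h → Line h → Bool} (hX1 : ∀ r c, X r (norm c) = X r c)
    (hX3 : ∀ r γ i, X r (crown γ i) = true →
      (∃ ρ i', r = crown ρ i') ∨ ∃ g θ i', r = thr g θ i' ∧ γ.val = θ.val)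
    {R C : Fin 59 → Line h} (hX : ∀ a b, X (R a) (C b) = decide (a ≠ b))
    (S : Finset (Fin 59)) (hS : 3 ≤ S.card) (hSC : ∀ b ∈ S, ∃ γ i, C b = crown γ i)
    (a : Fin 59) : ∃ ρ i, R a = crown ρ i := by
  have h1 : S.card - 1 ≤ (S.erase a).card := Finset.pred_card_le_card_erase
  have h2 : 1 < (S.erase a).card := by omega
  obtain ⟨b, hb, b', hb', hbb'⟩ := Finset.one_lt_card.mp h2
  rw [Finset.mem_erase] at hb hb'
  obtain ⟨γ, i, hγ⟩ := hSC b hb.2
  obtain ⟨γ', i', hγ'⟩ := hSC b' hb'.2
  have e1 : X (R a) (crown γ i) = true := by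
    rw [← hγ, hX]
    simpa using hb.1.symm
  have e2 : X (R a) (crown γ' i') = true := by
    rw [← hγ', hX]
    simpa using hb'.1.symm
  rcases hX3 _ _ _ e1 with hc | ⟨g, θ, i₁, hr, hv⟩
  · exact hc
  · rcases hX3 _ _ _ e2 with hc | ⟨g', θ', i₂, hr', hv'⟩
    · exact hc
    · exfalso
      rw [hr] at hr'
      have hθ : θ = θ' := by
        injection hr'
      have hγγ : γ = γ' := Fin.ext (by rw [hv, hv', hθ])
      apply hbb'
      apply norm_col_inj hX1 hX
      rw [hγ, hγ', hγγ]
      rfl

/-- `k` indices of a crown chosen inside a set span a `k`-crown. -/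
theorem sub_crown {k : ℕ} {R C : Fin 59 → Line h} (hM : ∀ a b, M (R a) (C b) = decide (a ≠ b))
    (s : Finset (Fin 59)) (hk : k ≤ s.card) :
    ∃ e : Fin k → Fin 59, (∀ x, e x ∈ s) ∧ ∀ x y, M (R (e x)) (C (e y)) = decide (x ≠ y) := by
  refine ⟨s.orderEmbOfCardLe hk, fun x => Finset.orderEmbOfCardLe_mem s hk x, fun x y => ?_⟩
  rw [hM]
  exact decide_eq_decide.mpr (s.orderEmbOfCardLe hk).injective.ne_iff

theorem M_crown_col_true {r : Line h} {γ : Fin 59} {i : Fin (2 ^ h)}
    (hr : M r (crown γ i) = true) :
    (∃ ρ i', r = crown ρ i') ∨ ∃ g θ i', r = thr g θ i' ∧ γ.val = θ.val := by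
  cases r with
  | crown ρ i' => exact Or.inl ⟨ρ, i', rfl⟩
  | thr g θ i' =>
    refine Or.inr ⟨g, θ, i', rfl, ?_⟩
    simpa [M] using hr
  | _ => simp [M] at hr

theorem M_crown_row_true {c : Line h} {γ : Fin 59} {i : Fin (2 ^ h)}
    (hc : M (crown γ i) c = true) :
    (∃ ρ i', c = crown ρ i') ∨ ∃ g θ i', c = thr g θ i' ∧ γ.val = θ.val := by
  cases c with
  | crown ρ i' => exact Or.inl ⟨ρ, i', rfl⟩
  | thr g θ i' =>
    refine Or.inr ⟨g, θ, i', rfl, ?_⟩
    simpa [M] using hc
  | _ => simp [M] at hc

/-- **R1b**, relative to the three R1a facts: all lines of a 59-crown of `M` are crown lines. -/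
theorem crown_lines_of
    (pay_no_crown3 : ∀ R C : Fin 3 → Line h, (∀ a, (R a).isPay = true) →
      (∀ a, (C a).isPay = true) → (∀ a b, M (R a) (C b) = decide (a ≠ b)) → False)
    (mark_pay_nested : ∀ R C : Fin 2 → Line h, (∀ a, (R a).isPay = false) →
      (∀ a, (C a).isPay = true) → (∀ a b, M (R a) (C b) = decide (a ≠ b)) → False)
    (pay_mark_nested : ∀ R C : Fin 2 → Line h, (∀ a, (R a).isPay = true) →
      (∀ a, (C a).isPay = false) → (∀ a b, M (R a) (C b) = decide (a ≠ b)) → False)
    (R C : Fin 59 → Line h) (hM : ∀ a b, M (R a) (C b) = decide (a ≠ b)) (a : Fin 59) :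
    (∃ ρ i, R a = crown ρ i) ∧ (∃ γ i, C a = crown γ i) := by
  classical
  -- the four classes of indices
  set f : Fin 59 → Bool × Bool := fun a => ((R a).isPay, (C a).isPay) with hf
  set cls : Bool × Bool → Finset (Fin 59) := fun b => Finset.univ.filter fun a => f a = b
    with hcls
  have hmem : ∀ b x, x ∈ cls b → (R x).isPay = b.1 ∧ (C x).isPay = b.2 := by
    intro b x hx
    have := (Finset.mem_filter.mp hx).2
    exact ⟨congrArg Prod.fst this, congrArg Prod.snd this⟩
  have hsum : (Finset.univ : Finset (Fin 59)).card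
      = ∑ b ∈ (Finset.univ : Finset (Bool × Bool)), (cls b).card :=
    Finset.card_eq_sum_card_fiberwise (fun x _ => Finset.mem_univ (f x))
  rw [Finset.card_univ, Fintype.card_fin, Fintype.sum_prod_type, Fintype.sum_bool,
    Fintype.sum_bool, Fintype.sum_bool] at hsum
  have hPP : (cls (true, true)).card ≤ 2 := by
    by_contra hcon
    obtain ⟨e, he, hMe⟩ := sub_crown (k := 3) hM (cls (true, true)) (by omega)
    exact pay_no_crown3 (fun x => R (e x)) (fun x => C (e x)) (fun x => (hmem _ _ (he x)).1)
      (fun x => (hmem _ _ (he x)).2) hMe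
  have hMP : (cls (false, true)).card ≤ 1 := by
    by_contra hcon
    obtain ⟨e, he, hMe⟩ := sub_crown (k := 2) hM (cls (false, true)) (by omega)
    exact mark_pay_nested (fun x => R (e x)) (fun x => C (e x)) (fun x => (hmem _ _ (he x)).1)
      (fun x => (hmem _ _ (he x)).2) hMe
  have hPM : (cls (true, false)).card ≤ 1 := by
    by_contra hcon
    obtain ⟨e, he, hMe⟩ := sub_crown (k := 2) hM (cls (true, false)) (by omega)
    exact pay_mark_nested (fun x => R (e x)) (fun x => C (e x)) (fun x => (hmem _ _ (he x)).1)
      (fun x => (hmem _ _ (he x)).2) hMe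
  have hMk : 55 ≤ (cls (false, false)).card := by omega
  -- the transposed crown
  have hM' : ∀ a b, (fun r c => M c r) (C a) (R b) = decide (a ≠ b) := by
    intro a b
    show M (R b) (C a) = decide (a ≠ b)
    rw [hM]
    exact decide_eq_decide.mpr ne_comm
  -- marker lines of the big class are crown lines
  have hR1 : ∀ b ∈ cls (false, false), ∃ ρ i, R b = crown ρ i := fun b hb =>
    core1 (X := M) M_norm_col (fun _ _ _ _ => rfl) hM (cls (false, false)) (by omega)
      (fun x hx => (hmem _ _ hx).2) b (hmem _ _ hb).1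
  have hC1 : ∀ b ∈ cls (false, false), ∃ γ i, C b = crown γ i := fun b hb =>
    core1 (X := fun r c => M c r) (fun r c => M_norm_row c r)
      (fun r c hr hc => M_symm_mark hr hc) hM' (cls (false, false)) (by omega)
      (fun x hx => (hmem _ _ hx).1) b (hmem _ _ hb).2
  -- every line is a crown line
  exact ⟨core2 (X := M) M_norm_col (fun _ _ _ hr => M_crown_col_true hr) hM
      (cls (false, false)) (by omega) hC1 a,
    core2 (X := fun r c => M c r) (fun r c => M_norm_row c r)
      (fun _ _ _ hr => M_crown_row_true hr) hM' (cls (false, false)) (by omega) hR1 a⟩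

end Crest.Agent.Helper76.S0066
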