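/-
S0066 (row 47) — package R1b (owner helper76): `crown_lines`, verbatim from
`Crest.Agent.Helper5.S0066.Spec`.  The proof is `crown_lines_of` (module `R1bCore`) applied to
the three R1a facts of helper4 (`Crest.Agent.Helper4.S0066.R1a`).
-/
import Crest.Agent.Helper4.S0066.R1a
import Crest.Agent.Helper76.S0066.R1bCore

set_option autoImplicit false

namespace Crest.Agent.Helper76.S0066

open Crest.Agent.Helper5.S0066 Line

variable {h : ℕ}

/-- **R1b.** All lines of a 59-crown of `M` are crown lines. -/
theorem crown_lines (R C : Fin 59 → Line h) (hM : ∀ a b, M (R a) (C b) = decide (a ≠ b)) (a : Fin 59) :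
    (∃ ρ i, R a = crown ρ i) ∧ (∃ γ i, C a = crown γ i) :=
  crown_lines_of Crest.Agent.Helper4.S0066.pay_no_crown3 Crest.Agent.Helper4.S0066.mark_pay_nested
    Crest.Agent.Helper4.S0066.pay_mark_nested R C hM a

end Crest.Agent.Helper76.S0066
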